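import Mathlib

namespace Vale.Agent.P037

def phi (H l x y : ℕ) : Prop :=
  if l ≤ H then x / 2 ^ (H - l) ≤ y / 2 ^ (H - l) else x / 2 ^ (l - H) < y / 2 ^ (l - H)

def beta (H j x : ℕ) : ℕ := if j < H then x / 2 ^ (H - 1 - j) % 2 else x / 2 ^ (j - H) % 2

def gamma (H l y : ℕ) : ℕ := if l < H then beta H l y else beta H (l - 1) y

lemma phi_mono {H l x x' y y' : ℕ} (h : phi H l x y) (hx : x' ≤ x) (hy : y ≤ y') :
    phi H l x' y' := by
  unfold phi at *
  split_ifs at * with hl
  · exact (Nat.div_le_div_right hx).trans (h.trans (Nat.div_le_div_right hy))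
  · exact (Nat.div_le_div_right hx).trans_lt (h.trans_le (Nat.div_le_div_right hy))

lemma beta_lt (H j x : ℕ) : beta H j x < 2 := by
  unfold beta; split_ifs <;> omega

lemma gamma_lt (H j x : ℕ) : gamma H j x < 2 := by
  unfold gamma; split_ifs <;> exact beta_lt _ _ _

lemma div_pow_succ (x d : ℕ) : x / 2 ^ (d + 1) = x / 2 ^ d / 2 := by
  rw [Nat.div_div_eq_div_mul, pow_succ]

lemma div_big {h x d : ℕ} (hx : x < 2 ^ h) (hd : h ≤ d) : x / 2 ^ d = 0 :=
  Nat.div_eq_of_lt (hx.trans_le (Nat.pow_le_pow_right (by norm_num) hd))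

lemma phi_zero {h x y : ℕ} (hx : x < 2 ^ h) : phi (h + 1) 0 x y := by
  unfold phi
  rw [if_pos (by omega), div_big hx (by omega)]
  exact Nat.zero_le _

lemma phi_last {h x y : ℕ} (hy : y < 2 ^ h) : ¬ phi (h + 1) (2 * h + 2) x y := by
  unfold phi
  rw [if_neg (by omega), div_big hy (by omega)]
  exact Nat.not_lt_zero _

lemma gamma_zero {h x y : ℕ} (hx : x < 2 ^ h) (hy : y < 2 ^ h) :
    gamma (h + 1) 0 y = beta (h + 1) 0 x := by
  unfold gamma beta
  simp only [show 0 < h + 1 by omega, if_true]
  rw [div_big hx (by omega), div_big hy (by omega)]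

lemma gamma_last {h x y : ℕ} (hx : x < 2 ^ h) (hy : y < 2 ^ h) :
    gamma (h + 1) (2 * h + 2) y = beta (h + 1) (2 * h + 1) x := by
  unfold gamma beta
  rw [if_neg (by omega), if_neg (by omega), if_neg (by omega)]
  rw [div_big hx (by omega), div_big hy (by omega)]

lemma step {h j x y y' : ℕ} (hx : x < 2 ^ h) (hy : y < 2 ^ h)
    (hord : j = 0 ∨ j + 1 = 2 * h + 2 ∨ y ≤ y')
    (h1 : j < h + 1 → gamma (h + 1) j y = beta (h + 1) j x)
    (h2 : h + 1 ≤ j → gamma (h + 1) (j + 1) y' = beta (h + 1) j x)
    (hp : phi (h + 1) j x y) (hn : ¬ phi (h + 1) (j + 1) x y') : j = h + 1 ∧ x = y := by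
  rcases hord with rfl | hj | hy'
  · exfalso; apply hn
    unfold phi
    rw [if_pos (by omega), div_big hx (by omega)]
    exact Nat.zero_le _
  · unfold phi at hp
    rcases Nat.eq_zero_or_pos h with rfl | hh
    · omega
    · rw [if_neg (by omega), div_big hy (by omega)] at hp
      exact absurd hp (Nat.not_lt_zero _)
  · rcases lt_trichotomy j (h + 1) with hj | hj | hj
    · exfalso
      have h1 := h1 hj
      unfold gamma beta at h1
      unfold phi at hp hn
      rw [if_pos hj, if_pos hj, if_pos hj] at h1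
      rw [if_pos (by omega)] at hp hn
      have e1 : h + 1 - j = (h + 1 - 1 - j) + 1 := by omega
      have e2 : h + 1 - (j + 1) = h + 1 - 1 - j := by omega
      rw [e1, div_pow_succ, div_pow_succ] at hp
      rw [e2] at hn
      have := Nat.div_le_div_right (c := 2 ^ (h + 1 - 1 - j)) hy'
      omega
    · subst hj
      have h2 := h2 le_rfl
      unfold gamma beta at h2
      unfold phi at hp hn
      rw [if_neg (by omega), if_neg (by omega), if_neg (by omega)] at h2
      rw [if_pos le_rfl] at hp
      rw [if_neg (by omega)] at hn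
      simp only [Nat.add_sub_cancel, Nat.sub_self, pow_zero, Nat.div_one,
        Nat.add_sub_cancel_left, pow_one] at h2 hp hn
      omega
    · exfalso
      have h2 := h2 hj.le
      unfold gamma beta at h2
      unfold phi at hp hn
      rw [if_neg (by omega), if_neg (by omega), if_neg (by omega)] at h2
      rw [if_neg (by omega)] at hp hn
      have e1 : j + 1 - (h + 1) = (j - (h + 1)) + 1 := by omega
      rw [e1, div_pow_succ, div_pow_succ] at hn
      rw [Nat.add_sub_cancel] at h2
      have := Nat.div_le_div_right (c := 2 ^ (j - (h + 1))) hy'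
      omega

end Vale.Agent.P037
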