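import Mathlib

namespace Vale.Agent.P037

/-- The number of ordered copies of the binary matrix `H` in the binary matrix `A`. -/
noncomputable def copies {k n : ℕ} (H : Fin k → Fin k → Bool) (A : Fin n → Fin n → Bool) : ℕ :=
  Set.ncard {rc : (Fin k → Fin n) × (Fin k → Fin n) |
    StrictMono rc.1 ∧ StrictMono rc.2 ∧ ∀ i j, A (rc.1 i) (rc.2 j) = H i j}

/-- The number of entries in which two binary matrices differ. -/
noncomputable def changes {n : ℕ} (A B : Fin n → Fin n → Bool) : ℕ :=
  Set.ncard {rc : Fin n × Fin n | A rc.1 rc.2 ≠ B rc.1 rc.2}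

/-- The normalised distance of `A` from `H`-freeness. -/
noncomputable def distFree {k n : ℕ} (H : Fin k → Fin k → Bool) (A : Fin n → Fin n → Bool) : ℝ :=
  ((sInf {d : ℕ | ∃ B : Fin n → Fin n → Bool, copies H B = 0 ∧ changes A B = d} : ℕ) : ℝ)
    / (n : ℝ) ^ 2

end Vale.Agent.P037
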