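import Vale.Agent.P037.Rigid

namespace Vale.Agent.P037

open Finset

open Classical in
lemma avg {G : Type} [Fintype G] {m : ℕ} (D : G × Fin m → G × Fin m → Prop) (P Q : G → Prop)
    (hD : Set.ncard {rc : (G × Fin m) × (G × Fin m) | D rc.1 rc.2} < m ^ 2) :
    ∃ x a b : Fin m, ∀ g g', ¬ (P g ∧ Q g') →
      ¬ D (g, if P g then x else a) (g', if Q g' then x else b) := by
  by_contra hcon
  push Not at hcon
  have hm : 0 < m := by
    rcases Nat.eq_zero_or_pos m with rfl | hm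
    · simp at hD
    · exact hm
  set d : G × Fin m → G × Fin m → ℕ := fun r c => if D r c then 1 else 0 with hd
  have hcard : Set.ncard {rc : (G × Fin m) × (G × Fin m) | D rc.1 rc.2} =
      ∑ g : G, ∑ g' : G, ∑ p : Fin m, ∑ q : Fin m, d (g, p) (g', q) := by
    rw [Set.ncard_eq_toFinset_card', Set.toFinset_ofPred, card_filter]
    rw [Fintype.sum_prod_type, Fintype.sum_prod_type]
    refine sum_congr rfl fun g _ => ?_
    simp only [Fintype.sum_prod_type]
    rw [sum_comm]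
  set e : Fin m → Fin m → Fin m → G → G → ℕ := fun x a b g g' =>
    if P g ∧ Q g' then 0 else d (g, if P g then x else a) (g', if Q g' then x else b) with he
  have h1 : ∀ x a b, 1 ≤ ∑ g : G, ∑ g' : G, e x a b g g' := by
    intro x a b
    obtain ⟨g, g', hn, hD'⟩ := hcon x a b
    have : e x a b g g' = 1 := by
      simp only [he, hd]
      rw [if_neg (fun a => hn a.1 a.2), if_pos hD']
    calc 1 = e x a b g g' := this.symm
      _ ≤ ∑ g' : G, e x a b g g' := single_le_sum (f := fun g' => e x a b g g')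
          (fun _ _ => Nat.zero_le _) (mem_univ g')
      _ ≤ _ := single_le_sum (f := fun g => ∑ g' : G, e x a b g g')
          (fun _ _ => Nat.zero_le _) (mem_univ g)
  have h2 : ∀ g g', ∑ x, ∑ a, ∑ b, e x a b g g' ≤
      m * ∑ p : Fin m, ∑ q : Fin m, d (g, p) (g', q) := by
    intro g g'
    by_cases hp : P g <;> by_cases hq : Q g'
    · simp [he, hp, hq]
    · simp only [he, hp, hq, and_false, if_false, if_true, sum_const, card_univ, Fintype.card_fin,
        smul_eq_mul, mul_sum, le_refl]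
    · simp only [he, hp, hq, false_and, if_false, if_true, sum_const, card_univ, Fintype.card_fin,
        smul_eq_mul, mul_sum]
      rw [sum_comm]
    · simp only [he, hp, hq, false_and, if_false, sum_const, card_univ, Fintype.card_fin,
        smul_eq_mul, le_refl]
  have h3 : m ^ 3 ≤ ∑ x : Fin m, ∑ a : Fin m, ∑ b : Fin m, ∑ g : G, ∑ g' : G, e x a b g g' := by
    calc m ^ 3 = ∑ x : Fin m, ∑ a : Fin m, ∑ b : Fin m, 1 := by simp; ring
      _ ≤ _ := by gcongr with x _ a _ b _; exact h1 x a b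
  have h4 : ∑ x : Fin m, ∑ a : Fin m, ∑ b : Fin m, ∑ g : G, ∑ g' : G, e x a b g g' =
      ∑ g : G, ∑ g' : G, ∑ x : Fin m, ∑ a : Fin m, ∑ b : Fin m, e x a b g g' := by
    have sw : ∀ (f : Fin m → G → G → ℕ),
        ∑ x, ∑ g, ∑ g', f x g g' = ∑ g, ∑ g', ∑ x, f x g g' := by
      intro f
      rw [sum_comm]
      exact sum_congr rfl fun g _ => sum_comm
    simp only [sw]
  have h5 : m ^ 3 ≤ m * Set.ncard {rc : (G × Fin m) × (G × Fin m) | D rc.1 rc.2} := by
    rw [hcard, mul_sum]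
    refine h3.trans (h4.le.trans (sum_le_sum fun g _ => ?_))
    rw [mul_sum]
    exact sum_le_sum fun g' _ => h2 g g'
  have : m * Set.ncard {rc : (G × Fin m) × (G × Fin m) | D rc.1 rc.2} < m * m ^ 2 :=
    Nat.mul_lt_mul_of_pos_left hD hm
  have e3 : m * m ^ 2 = m ^ 3 := by ring
  omega

abbrev Gp (h : ℕ) : Type := Fin (2 * h + 3) × Fin 64

def PP {h : ℕ} (g : Gp h) : Prop := (g.2 : ℕ) = 63

def QQ {h : ℕ} (g : Gp h) : Prop := (g.2 : ℕ) = 63 ∧ (g.1 : ℕ) ≠ 0 ∧ (g.1 : ℕ) ≠ 2 * h + 2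

def pick {α : Type} (f : Fin 20 → α) (s t : α) (i : Fin 22) : α :=
  if h : (i : ℕ) < 20 then f ⟨i, h⟩ else if (i : ℕ) = 20 then s else t

lemma pick_cases {α : Type} (f : Fin 20 → α) (s t : α) (i : Fin 22) :
    (∃ h : (i : ℕ) < 20, pick f s t i = f ⟨i, h⟩) ∨ ((i : ℕ) = 20 ∧ pick f s t i = s) ∨
      ((i : ℕ) = 21 ∧ pick f s t i = t) := by
  unfold pick
  by_cases h : (i : ℕ) < 20
  · left; exact ⟨h, dif_pos h⟩
  · by_cases h' : (i : ℕ) = 20
    · right; left; exact ⟨h', by rw [dif_neg h, if_pos h']⟩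
    · right; right; exact ⟨by omega, by rw [dif_neg h, if_neg h']⟩

lemma clause {h : ℕ} {B : Ix h → Ix h → Prop} (ρ σ : Gp h → Fin (2 ^ h)) (a b : Fin (2 ^ h))
    (hρ : ∀ g, (g.2 : ℕ) < 60 → ρ g = a) (hσ : ∀ g, (g.2 : ℕ) < 60 → σ g = b)
    (hB : ∀ g g', ((g.2 : ℕ) < 60 ∨ (g'.2 : ℕ) < 60) →
      (B (g, ρ g) (g', σ g') ↔ A (g, ρ g) (g', σ g')))
    (j0 : Fin (2 * h + 3)) (k : ℕ) (hk : k < 3) (g1 g2 f1 f2 : Gp h)
    (u1 : U1 j0 k g1.1 g1.2 (beta (h + 1) g1.1 (ρ g1))) (u2 : U2 j0 k g2.1 g2.2)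
    (v1 : V1 (h + 1) j0 k f1.1 f1.2 (gamma (h + 1) f1.1 (σ f1)))
    (v2 : V2 (h + 1) j0 k f2.1 f2.2 (gamma (h + 1) f2.1 (σ f2)))
    (lr : ltR (g1, ρ g1) (g2, ρ g2)) (lc : ltC (f1, σ f1) (f2, σ f2))
    (d11 : B (g1, ρ g1) (f1, σ f1)) (d12 : ¬ B (g1, ρ g1) (f2, σ f2))
    (d21 : B (g2, ρ g2) (f1, σ f1)) (d22 : B (g2, ρ g2) (f2, σ f2)) :
    ∃ r c, IsCopy B r c := by
  let an : Fin 20 → Gp h := fun i => (j0, ⟨20 * k + i, by omega⟩)
  have an1 : ∀ i, (an i).1 = j0 := fun _ => rfl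
  have an2 : ∀ i, ((an i).2 : ℕ) = 20 * k + i := fun _ => rfl
  have g1a : 60 ≤ (g1.2 : ℕ) := by unfold U1 at u1; omega
  have g2a : 60 ≤ (g2.2 : ℕ) := by unfold U2 at u2; omega
  have f1a : 60 ≤ (f1.2 : ℕ) := by unfold V1 at v1; omega
  have f2a : 60 ≤ (f2.2 : ℕ) := by unfold V2 at v2; omega
  have nu1 : ¬ U2 j0 k g1.1 g1.2 := by unfold U1 at u1; unfold U2; omega
  have nu2 : ∀ z, ¬ U1 j0 k g2.1 g2.2 z := by intro z; unfold U2 at u2; unfold U1; omega
  have nv1 : ∀ z, ¬ V2 (h + 1) j0 k f1.1 f1.2 z := by intro z; unfold V1 at v1; unfold V2; omega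
  have nv2 : ∀ z, ¬ V1 (h + 1) j0 k f2.1 f2.2 z := by intro z; unfold V2 at v2; unfold V1; omega
  have zr : ∀ (i : Fin 20) (g : Gp h), 60 ≤ (g.2 : ℕ) → ltR (an i, ρ (an i)) (g, ρ g) := by
    intro i g hg
    have := an2 i
    unfold ltR lex3 zoneR
    left
    dsimp only
    split_ifs <;> omega
  have zc : ∀ (i : Fin 20) (g : Gp h), 60 ≤ (g.2 : ℕ) → ltC (an i, σ (an i)) (g, σ g) := by
    intro i g hg
    have := an2 i
    unfold ltC lex3 zoneC
    left
    dsimp only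
    split_ifs <;> omega
  have div1 : ∀ i : ℕ, i < 20 → (20 * k + i) / 20 = k := fun i _ => by omega
  have mod1 : ∀ i : ℕ, i < 20 → (20 * k + i) % 20 = i := fun i _ => by omega
  refine ⟨fun i => (pick an g1 g2 i, ρ (pick an g1 g2 i)),
    fun i => (pick an f1 f2 i, σ (pick an f1 f2 i)), ?_, ?_, ?_⟩
  · intro i j hij
    have hij' : (i : ℕ) < j := hij
    rcases pick_cases an g1 g2 i with ⟨hi, ei⟩ | ⟨hi, ei⟩ | ⟨hi, ei⟩ <;>
      rcases pick_cases an g1 g2 j with ⟨hj, ej⟩ | ⟨hj, ej⟩ | ⟨hj, ej⟩ <;>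
      first | omega | skip
    all_goals rw [ei, ej]
    · rw [hρ _ (by rw [an2]; dsimp only; omega), hρ _ (by rw [an2]; dsimp only; omega)]
      unfold ltR lex3 zoneR
      simp only [an1, an2, true_and]
      split_ifs <;> omega
    · exact zr _ _ g1a
    · exact zr _ _ g2a
    · exact lr
  · intro i j hij
    have hij' : (i : ℕ) < j := hij
    rcases pick_cases an f1 f2 i with ⟨hi, ei⟩ | ⟨hi, ei⟩ | ⟨hi, ei⟩ <;>
      rcases pick_cases an f1 f2 j with ⟨hj, ej⟩ | ⟨hj, ej⟩ | ⟨hj, ej⟩ <;>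
      first | omega | skip
    all_goals rw [ei, ej]
    · rw [hσ _ (by rw [an2]; dsimp only; omega), hσ _ (by rw [an2]; dsimp only; omega)]
      unfold ltC lex3 zoneC
      simp only [an1, an2, true_and]
      split_ifs <;> omega
    · exact zc _ _ f1a
    · exact zc _ _ f2a
    · exact lc
  · intro i j
    have hA : ∀ i : Fin 20, ((an i).2 : ℕ) < 60 := fun i => by rw [an2]; omega
    rcases pick_cases an g1 g2 i with ⟨hi, ei⟩ | ⟨hi, ei⟩ | ⟨hi, ei⟩ <;>
      rcases pick_cases an f1 f2 j with ⟨hj, ej⟩ | ⟨hj, ej⟩ | ⟨hj, ej⟩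
    all_goals rw [ei, ej]
    · rw [hB _ _ (Or.inl (hA _)), A_aa (hA _) (hA _)]
      simp only [an1, an2, true_and]
      unfold Hp; omega
    · rw [hB _ _ (Or.inl (hA _)), A_an (hA _) f1a]
      simp only [an1, an2, div1 _ hi, mod1 _ hi, v1, nv1, and_true, and_false, or_false]
      unfold Hp; omega
    · rw [hB _ _ (Or.inl (hA _)), A_an (hA _) f2a]
      simp only [an1, an2, div1 _ hi, mod1 _ hi, v2, nv2, and_true, and_false, false_or]
      unfold Hp; omega
    · rw [hB _ _ (Or.inr (hA _)), A_na g1a (hA _)]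
      simp only [an1, an2, div1 _ hj, mod1 _ hj, u1, nu1, and_true, and_false, or_false]
      unfold Hp; omega
    · simp only [d11, true_iff]; unfold Hp; omega
    · simp only [d12, false_iff]; unfold Hp; omega
    · rw [hB _ _ (Or.inr (hA _)), A_na g2a (hA _)]
      simp only [an1, an2, div1 _ hj, mod1 _ hj, u2, nu2, and_true, and_false, false_or]
      unfold Hp; omega
    · simp only [d21, true_iff]; unfold Hp; omega
    · simp only [d22, true_iff]; unfold Hp; omega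

open Classical in
theorem far {h : ℕ} (B : Ix h → Ix h → Prop)
    (hD : Set.ncard {rc : Ix h × Ix h | ¬ (B rc.1 rc.2 ↔ A rc.1 rc.2)} < (2 ^ h) ^ 2) :
    ∃ r c, IsCopy B r c := by
  by_contra hno
  obtain ⟨x, a, b, hab⟩ := avg (fun r c : Ix h => ¬ (B r c ↔ A r c)) PP QQ hD
  set ρ : Gp h → Fin (2 ^ h) := fun g => if PP g then x else a with hρ
  set σ : Gp h → Fin (2 ^ h) := fun g => if QQ g then x else b with hσ
  have hB : ∀ g g', ¬ (PP g ∧ QQ g') → (B (g, ρ g) (g', σ g') ↔ A (g, ρ g) (g', σ g')) :=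
    fun g g' hn => not_not.1 (hab g g' hn)
  have hρa : ∀ g : Gp h, (g.2 : ℕ) < 60 → ρ g = a := fun g hg => if_neg (by unfold PP; omega)
  have hσb : ∀ g : Gp h, (g.2 : ℕ) < 60 → σ g = b := fun g hg => if_neg (by unfold QQ; omega)
  have hB' : ∀ g g' : Gp h, ((g.2 : ℕ) < 60 ∨ (g'.2 : ℕ) < 60) →
      (B (g, ρ g) (g', σ g') ↔ A (g, ρ g) (g', σ g')) :=
    fun g g' hn => hB g g' (by unfold PP QQ; omega)
  have hρx : ∀ j, ρ (j, 63) = x := fun j => if_pos rfl
  have hσx : ∀ j : Fin (2 * h + 3), (j : ℕ) ≠ 0 → (j : ℕ) ≠ 2 * h + 2 → σ (j, 63) = x :=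
    fun j h1 h2 => if_pos ⟨rfl, h1, h2⟩
  have v63 : (((63 : Fin 64)) : ℕ) = 63 := rfl
  have v62 : (((62 : Fin 64)) : ℕ) = 62 := rfl
  have key : ∀ (j : ℕ) (hj : j < 2 * h + 3),
      B ((⟨j, hj⟩, 63), ρ (⟨j, hj⟩, 63)) ((⟨j, hj⟩, 63), σ (⟨j, hj⟩, 63)) := by
    intro j
    induction j with
    | zero =>
      intro hj
      rw [hB _ _ (by unfold QQ; simp)]
      refine (A_dd ?_ ?_ ?_).2 (phi_zero (ρ _).2)
      exacts [rfl, rfl, Or.inl rfl]
    | succ j ih =>
      intro hj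
      have hj' : j < 2 * h + 3 := by omega
      have ih := ih hj'
      have hbl := beta_lt (h + 1) j x
      have w1 : V1 (h + 1) j (beta (h + 1) j x) j 63 (gamma (h + 1) j (σ (⟨j, hj'⟩, 63))) := by
        refine Or.inl ⟨hbl, rfl, rfl, ?_⟩
        by_cases hh : h + 1 ≤ j
        · exact Or.inl hh
        · right
          by_cases h0 : j = 0
          · subst h0; exact gamma_zero x.2 (σ _).2
          · rw [hσx _ h0 (by dsimp only; omega)]
            unfold gamma; rw [if_pos (by omega)]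
      have w2 : V2 (h + 1) j (beta (h + 1) j x) (j + 1) 63
          (gamma (h + 1) (j + 1) (σ (⟨j + 1, hj⟩, 63))) := by
        refine ⟨rfl, rfl, Or.inr ?_⟩
        by_cases hh : j < h + 1
        · exact Or.inl hh
        · right
          by_cases h0 : j + 1 = 2 * h + 2
          · have : j = 2 * h + 1 := by omega
            subst this
            exact gamma_last x.2 (σ _).2
          · rw [hσx _ (by dsimp only; omega) h0]
            unfold gamma; rw [if_neg (by omega)]; rfl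
      have s1 : B ((⟨j, hj'⟩, 63), ρ (⟨j, hj'⟩, 63)) ((⟨j + 1, hj⟩, 63), σ (⟨j + 1, hj⟩, 63)) := by
        by_contra hn
        refine hno (clause ρ σ a b hρa hσb hB' ⟨j, hj'⟩ (beta (h + 1) j x) (by omega)
          (⟨j, hj'⟩, 63) (⟨j, hj'⟩, ⟨60 + beta (h + 1) j x, by omega⟩) (⟨j, hj'⟩, 63)
          (⟨j + 1, hj⟩, 63) ?_ ?_ w1 w2 ?_ ?_ ih hn ?_ ?_)
        · rw [hρx]; exact ⟨rfl, Or.inl ⟨hbl, rfl, rfl⟩⟩
        · exact Or.inl ⟨hbl, rfl, rfl⟩
        · unfold ltR lex3 zoneR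
          left
          simp only [v63]
          split_ifs <;> omega
        · unfold ltC lex3 zoneC
          simp only [v63]
          by_cases h0 : j = 0
          · left; split_ifs <;> first | omega | contradiction
          · by_cases h1 : j + 1 = 2 * h + 2
            · left; split_ifs <;> first | omega | contradiction
            · rw [hσx _ h0 (by dsimp only; omega), hσx _ (by dsimp only; omega) h1]
              split_ifs <;> first | omega | contradiction
        · rw [hB _ _ (by unfold PP; dsimp only; omega)]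
          refine ⟨Or.inr (Or.inr (Or.inr (Or.inl ⟨by dsimp only; omega, by dsimp only; omega,
            Or.inl ?_⟩))), fun hh => by dsimp only at hh; omega⟩
          simp only [Nat.add_sub_cancel_left]
          exact w1
        · rw [hB _ _ (by unfold PP; dsimp only; omega)]
          refine ⟨Or.inr (Or.inr (Or.inr (Or.inl ⟨by dsimp only; omega, by dsimp only; omega,
            Or.inr ?_⟩))), fun hh => by dsimp only at hh; omega⟩
          simp only [Nat.add_sub_cancel_left]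
          exact w2
      by_contra hn
      have hd : ∀ g : Gp h, (U1 j 2 g.1 g.2 (beta (h + 1) g.1 (ρ g)) ∨ U2 j 2 g.1 g.2) →
          B (g, ρ g) ((⟨j, hj'⟩, 62), σ (⟨j, hj'⟩, 62)) := by
        intro g hg
        rw [hB _ _ (by unfold QQ; simp only [v62]; omega)]
        exact ⟨Or.inr (Or.inr (Or.inr (Or.inr (Or.inl ⟨rfl, hg⟩)))),
          fun _ hh => by simp only [v62] at hh; omega⟩
      have y1 : U1 j 2 (j + 1) 63 (beta (h + 1) (j + 1) (ρ (⟨j + 1, hj⟩, 63))) :=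
        ⟨rfl, Or.inr ⟨rfl, rfl⟩⟩
      have y2 : U2 j 2 j 63 := Or.inr ⟨rfl, rfl, rfl⟩
      refine hno (clause ρ σ a b hρa hσb hB' ⟨j, hj'⟩ 2 (by omega)
          (⟨j + 1, hj⟩, 63) (⟨j, hj'⟩, 63) (⟨j, hj'⟩, 62)
          (⟨j + 1, hj⟩, 63) y1 y2 (Or.inr ⟨rfl, rfl, rfl⟩) ⟨rfl, rfl, Or.inl rfl⟩ ?_ ?_
          (hd _ (Or.inl y1)) hn (hd _ (Or.inr y2)) s1)
      · rw [hρx, hρx]
        unfold ltR lex3 zoneR
        simp only [v63, true_and]
        omega
      · unfold ltC lex3 zoneC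
        left
        simp only [v63, v62]
        split_ifs <;> omega
  have := key (2 * h + 2) (by omega)
  rw [hB _ _ (by unfold QQ; simp)] at this
  refine phi_last (σ _).2 ((A_dd ?_ ?_ ?_).1 this)
  exacts [rfl, rfl, Or.inl rfl]

end Vale.Agent.P037
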