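import Vale.Agent.P037.Far
import Vale.Agent.P037.Defs

namespace Vale.Agent.P037

lemma exists_pos {α : Type} [Fintype α] {n : ℕ} (hn : Fintype.card α = n) (f g k : α → ℕ)
    (hinj : ∀ a b, f a = f b → g a = g b → k a = k b → a = b) :
    ∃ e : α ≃ Fin n, ∀ a b, e a < e b ↔ lex3 (f a) (g a) (k a) (f b) (g b) (k b) := by
  let key : α → ℕ ×ₗ ℕ ×ₗ ℕ := fun a => toLex (f a, toLex (g a, k a))
  have hk : Function.Injective key := by
    intro a b hab
    have h1 := toLex.injective hab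
    have h2 := toLex.injective (Prod.mk.inj h1).2
    exact hinj a b (Prod.mk.inj h1).1 (Prod.mk.inj h2).1 (Prod.mk.inj h2).2
  letI : LinearOrder α := LinearOrder.lift' key hk
  refine ⟨(Fintype.orderIsoFinOfCardEq α hn).symm.toEquiv, fun a b => ?_⟩
  have : a < b ↔ key a < key b := Iff.rfl
  rw [show ((Fintype.orderIsoFinOfCardEq α hn).symm.toEquiv a <
      (Fintype.orderIsoFinOfCardEq α hn).symm.toEquiv b) ↔ a < b from
      (Fintype.orderIsoFinOfCardEq α hn).symm.lt_iff_lt, this]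
  simp only [key, Prod.Lex.toLex_lt_toLex, lex3]

open Classical in
noncomputable def H22 : Fin 22 → Fin 22 → Bool := fun i j => decide (Hp i j)

lemma card_Ix (h : ℕ) : Fintype.card (Ix h) = (2 * h + 3) * 64 * 2 ^ h := by simp

lemma ix_ext {h : ℕ} {a b : Ix h} (h1 : (a.1.1 : ℕ) = b.1.1) (h2 : (a.1.2 : ℕ) = b.1.2)
    (h3 : (a.2 : ℕ) = b.2) : a = b :=
  Prod.ext (Prod.ext (Fin.ext h1) (Fin.ext h2)) (Fin.ext h3)

open Classical in
theorem family (h : ℕ) : ∃ M : Fin ((2 * h + 3) * 64 * 2 ^ h) → Fin ((2 * h + 3) * 64 * 2 ^ h) → Bool,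
    (∀ B, copies H22 B = 0 → (2 ^ h) ^ 2 ≤ changes M B) ∧
      copies H22 M ≤ ((2 * h + 3) * 64 * 2 ^ h) ^ 43 := by
  obtain ⟨eR, hR⟩ := exists_pos (card_Ix h) (fun r => zoneR r.1.2) (fun r => r.2)
    (fun r => 64 * (2 * h + 2 - r.1.1) + r.1.2)
    (fun a b _ h2 h3 => ix_ext (by omega) (by omega) h2)
  obtain ⟨eC, hC⟩ := exists_pos (card_Ix h) (fun c => zoneC h c.1.1 c.1.2) (fun c => c.2)
    (fun c => 64 * c.1.1 + c.1.2) (fun a b _ h2 h3 => ix_ext (by omega) (by omega) h2)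
  have hR' : ∀ a b, eR a < eR b ↔ ltR a b := hR
  have hC' : ∀ a b, eC a < eC b ↔ ltC a b := hC
  clear hR hC
  generalize (2 * h + 3) * 64 * 2 ^ h = n at *
  refine ⟨fun i j => decide (A (eR.symm i) (eC.symm j)), ?_, ?_⟩
  · intro B hB
    by_contra hlt
    have hc : Set.ncard {rc : Ix h × Ix h |
        ¬ (B (eR rc.1) (eC rc.2) = true ↔ A rc.1 rc.2)} =
        changes (fun i j => decide (A (eR.symm i) (eC.symm j))) B := by
      unfold changes
      refine Set.ncard_congr (fun rc _ => (eR rc.1, eC rc.2)) ?_ ?_ ?_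
      · intro rc hrc
        simp only [Set.mem_ofPred_eq, Equiv.symm_apply_apply] at hrc ⊢
        intro e; apply hrc; rw [← e]; simp
      · intro a b _ _ hab
        have := Prod.mk.inj hab
        exact Prod.ext (eR.injective this.1) (eC.injective this.2)
      · intro rc hrc
        refine ⟨(eR.symm rc.1, eC.symm rc.2), ?_, by simp⟩
        simp only [Set.mem_ofPred_eq, Equiv.apply_symm_apply] at hrc ⊢
        intro e; apply hrc
        rw [Bool.eq_iff_iff]; simp [e]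
    obtain ⟨r, c, H⟩ := far (fun r c => B (eR r) (eC c) = true) (by rw [hc]; omega)
    unfold copies at hB
    rw [Set.ncard_eq_zero] at hB
    have : (fun i => eR (r i), fun i => eC (c i)) ∈ {rc : (Fin 22 → Fin n) × (Fin 22 → Fin n) |
        StrictMono rc.1 ∧ StrictMono rc.2 ∧ ∀ i j, B (rc.1 i) (rc.2 j) = H22 i j} := by
      refine ⟨fun i j hij => (hR' _ _).2 (H.hr i j hij),
        fun i j hij => (hC' _ _).2 (H.hc i j hij), fun i j => ?_⟩
      rw [Bool.eq_iff_iff, H.hB]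
      simp [H22]
    rw [hB] at this
    exact this
  · unfold copies
    have hcard : Set.ncard (Set.univ : Set ((Fin 22 → Fin n) × (Fin 21 → Fin n))) = n ^ 43 := by
      rw [Set.ncard_univ, Nat.card_eq_fintype_card]
      simp only [Fintype.card_prod, Fintype.card_fun, Fintype.card_fin]
      ring
    rw [← hcard]
    refine Set.ncard_le_ncard_of_injOn
      (fun rc => (rc.1, fun j => rc.2 ((20 : Fin 22).succAbove j))) (fun _ _ => Set.mem_univ _) ?_
    have key : ∀ rc : (Fin 22 → Fin n) × (Fin 22 → Fin n), StrictMono rc.1 ∧ StrictMono rc.2 ∧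
        (∀ i j, decide (A (eR.symm (rc.1 i)) (eC.symm (rc.2 j))) = H22 i j) →
        rc.2 20 = eC (eR.symm (rc.1 20)) := by
      rintro rc ⟨h1, h2, h3⟩
      have H : IsCopy A (fun i => eR.symm (rc.1 i)) (fun j => eC.symm (rc.2 j)) := by
        refine ⟨fun i j hij => (hR' _ _).1 (by simpa using h1 hij),
          fun i j hij => (hC' _ _).1 (by simpa using h2 hij), fun i j => ?_⟩
        simpa [H22] using h3 i j
      have := H.rigid
      rw [← this]; simp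
    intro a ha b hb hab
    have e1 : a.1 = b.1 := (Prod.mk.inj hab).1
    have e2 := (Prod.mk.inj hab).2
    refine Prod.ext e1 (funext fun j => ?_)
    by_cases hj : j = 20
    · rw [hj, key a ha, key b hb, e1]
    · obtain ⟨i, rfl⟩ := Fin.exists_succAbove_eq hj
      exact congrFun e2 i

lemma copies_false (n : ℕ) : copies H22 (fun _ _ : Fin n => false) = 0 := by
  unfold copies
  rw [Set.ncard_eq_zero]
  ext rc
  simp only [Set.mem_ofPred_eq, Set.mem_empty_iff_false, iff_false]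
  rintro ⟨_, _, h3⟩
  have := h3 0 1
  simp [H22, Hp] at this

theorem family' (h : ℕ) : ∃ n : ℕ, 2 ^ (h + 7) ≤ n ∧ ∃ M : Fin n → Fin n → Bool,
    1 / (64 * (2 * h + 3) : ℝ) ^ 2 ≤ distFree H22 M ∧
      (copies H22 M : ℝ) ≤ (n : ℝ) ^ 44 / 2 ^ (h + 7) := by
  obtain ⟨M, h1, h2⟩ := family h
  have hn : 2 ^ (h + 7) ≤ (2 * h + 3) * 64 * 2 ^ h := by
    rw [pow_add, mul_comm]; gcongr; omega
  refine ⟨_, hn, M, ?_, ?_⟩
  · unfold distFree
    have hne : {d : ℕ | ∃ B, copies H22 B = 0 ∧ changes M B = d}.Nonempty :=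
      ⟨_, _, copies_false _, rfl⟩
    obtain ⟨B, hB, e⟩ := Nat.sInf_mem hne
    have := h1 B hB
    rw [← e]
    have hc : (((2 ^ h) ^ 2 : ℕ) : ℝ) ≤ (changes M B : ℝ) := by exact_mod_cast this
    rw [div_le_div_iff₀ (by positivity) (by positivity)]
    push_cast at hc ⊢
    calc 1 * ((2 * (h : ℝ) + 3) * 64 * 2 ^ h) ^ 2 = (2 ^ h) ^ 2 * (64 * (2 * h + 3)) ^ 2 := by ring
      _ ≤ _ := by gcongr
  · clear h1
    generalize (2 * h + 3) * 64 * 2 ^ h = n at *
    have hc : (copies H22 M : ℝ) ≤ (n : ℝ) ^ 43 := by exact_mod_cast h2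
    have hn' : (2 : ℝ) ^ (h + 7) ≤ n := by exact_mod_cast hn
    rw [le_div_iff₀ (by positivity)]
    calc (copies H22 M : ℝ) * 2 ^ (h + 7) ≤ (n : ℝ) ^ 43 * n := by gcongr
      _ = _ := by ring

theorem quant (ε : ℝ) (h0 : 0 < ε) (h1 : ε ≤ 1 / 192 ^ 2) : ∃ n : ℕ, 1 ≤ n ∧
    ∃ M : Fin n → Fin n → Bool, ε ≤ distFree H22 M ∧
      (copies H22 M : ℝ) ≤ (2 : ℝ) ^ (-(1 / (128 * √ε))) * (n : ℝ) ^ (2 * 22) := by
  set s : ℝ := 1 / √ε with hs
  have hsq : 0 < √ε := Real.sqrt_pos.2 h0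
  have hs192 : 192 ≤ s := by
    rw [hs, le_div_iff₀ hsq]
    have : √ε ≤ 1 / 192 := by
      rw [Real.sqrt_le_left (by norm_num)]; linarith [show ((1 : ℝ) / 192) ^ 2 = 1 / 192 ^ 2 by norm_num]
    linarith
  set h : ℕ := ⌊(s / 64 - 3) / 2⌋₊ with hh
  have f1 : (h : ℝ) ≤ (s / 64 - 3) / 2 := Nat.floor_le (by linarith)
  have f2 : (s / 64 - 3) / 2 < h + 1 := Nat.lt_floor_add_one _
  obtain ⟨n, hn, M, m1, m2⟩ := family' h
  refine ⟨n, le_trans Nat.one_le_two_pow hn, M, le_trans ?_ m1, le_trans m2 ?_⟩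
  · have : ε = 1 / s ^ 2 := by
      rw [hs, div_pow, Real.sq_sqrt h0.le]; simp
    rw [this]
    gcongr
    linarith
  · rw [div_eq_mul_inv, mul_comm]
    refine mul_le_mul_of_nonneg_right ?_ (by positivity)
    rw [← Real.rpow_natCast, ← Real.rpow_neg (by norm_num)]
    refine Real.rpow_le_rpow_of_exponent_le (by norm_num) ?_
    have : 1 / (128 * √ε) = s / 128 := by rw [hs]; field_simp
    rw [this]
    push_cast
    linarith

theorem notPoly (c C : ℝ) (hc : 0 < c) (hC : 0 < C) : ∃ n : ℕ, 1 ≤ n ∧ ∃ ε : ℝ, 0 < ε ∧ ε < 1 ∧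
    ∃ M : Fin n → Fin n → Bool, ε ≤ distFree H22 M ∧
      (copies H22 M : ℝ) < c * ε ^ C * (n : ℝ) ^ (2 * 22) := by
  obtain ⟨N, hN⟩ := exists_nat_ge C
  have ht := tendsto_pow_const_div_const_pow_of_one_lt (2 * N) (show (1 : ℝ) < 2 by norm_num)
  have hpos : 0 < c / 320 ^ (2 * N) := by positivity
  obtain ⟨h, hh, h1⟩ := ((ht.eventually (gt_mem_nhds hpos)).and
    (Filter.eventually_ge_atTop 1)).exists
  obtain ⟨n, hn, M, m1, m2⟩ := family' h
  have h1' : (1 : ℝ) ≤ h := by exact_mod_cast h1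
  have hn1 : 1 ≤ n := le_trans Nat.one_le_two_pow hn
  set s : ℝ := 64 * (2 * h + 3) with hs
  have hs1 : 1 < s := by rw [hs]; linarith
  have hs2 : 1 < s ^ 2 := one_lt_pow₀ hs1 (by norm_num)
  have he0 : 0 < 1 / s ^ 2 := by positivity
  have he1 : 1 / s ^ 2 < 1 := by rw [div_lt_one (by positivity)]; exact hs2
  refine ⟨n, hn1, 1 / s ^ 2, he0, he1, M, m1, m2.trans_lt ?_⟩
  have hnpos : (0 : ℝ) < (n : ℝ) ^ 44 := by
    have : (0 : ℝ) < n := by exact_mod_cast hn1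
    positivity
  rw [div_eq_mul_inv, mul_comm]
  refine mul_lt_mul_of_pos_right ?_ hnpos
  have e1 : (1 / s ^ 2) ^ (N : ℝ) ≤ (1 / s ^ 2) ^ C :=
    Real.rpow_le_rpow_of_exponent_ge he0 he1.le hN
  rw [Real.rpow_natCast] at e1
  have e2 : 1 / (320 * (h : ℝ)) ^ (2 * N) ≤ (1 / s ^ 2) ^ N := by
    rw [div_pow, one_pow, ← pow_mul]
    gcongr
    rw [hs]; linarith
  have e3 : ((2 : ℝ) ^ (h + 7))⁻¹ ≤ ((2 : ℝ) ^ h)⁻¹ := by
    gcongr
    · norm_num
    · omega
  have e4 : ((2 : ℝ) ^ h)⁻¹ < c * (1 / (320 * (h : ℝ)) ^ (2 * N)) := by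
    rw [div_lt_div_iff₀ (by positivity) (by positivity)] at hh
    rw [mul_one_div, lt_div_iff₀ (by positivity), inv_mul_lt_iff₀ (by positivity), mul_pow]
    linarith
  calc ((2 : ℝ) ^ (h + 7))⁻¹ < c * (1 / (320 * (h : ℝ)) ^ (2 * N)) := e3.trans_lt e4
    _ ≤ c * (1 / s ^ 2) ^ C := by gcongr; exact e2.trans e1

end Vale.Agent.P037
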