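import Vale.Agent.P037.Arith

namespace Vale.Agent.P037

def U1 (j0 k j u b : ℕ) : Prop := u = 63 ∧ ((k < 2 ∧ j = j0 ∧ b = k) ∨ (k = 2 ∧ j = j0 + 1))

def U2 (j0 k j u : ℕ) : Prop := (k < 2 ∧ j = j0 ∧ u = 60 + k) ∨ (k = 2 ∧ u = 63 ∧ j = j0)

def V1 (H j0 k l v g : ℕ) : Prop :=
  (k < 2 ∧ v = 63 ∧ l = j0 ∧ (H ≤ j0 ∨ g = k)) ∨ (k = 2 ∧ l = j0 ∧ v = 62)

def V2 (H j0 k l v g : ℕ) : Prop := v = 63 ∧ l = j0 + 1 ∧ (k = 2 ∨ j0 < H ∨ g = k)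

def F (H j u b l v g : ℕ) : Prop :=
  (u < 60 ∧ v < 60 ∧ j = l ∧ u / 20 = v / 20 ∧ u ≠ v) ∨
  (u < 60 ∧ ((u % 20 = 0 ∧ V1 H j (u / 20) l v g) ∨ (u % 20 = 1 ∧ V2 H j (u / 20) l v g))) ∨
  (v < 60 ∧ ((v % 20 = 0 ∧ U1 l (v / 20) j u b) ∨ (v % 20 = 1 ∧ U2 l (v / 20) j u))) ∨
  (60 ≤ u ∧ u < 62 ∧ (V1 H j (u - 60) l v g ∨ V2 H j (u - 60) l v g)) ∨
  (v = 62 ∧ (U1 l 2 j u b ∨ U2 l 2 j u)) ∨
  (u = 63 ∧ v = 63 ∧ (l = j ∨ l = j + 1))

def slot (j u b : ℕ) : ℕ :=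
  if u < 60 then (u / 20) * 2 + u % 20 % 2 else
  if u < 63 then 6 + (u - 60) * 2 + j % 2 else 12 + 2 * (j % 2) + b % 2

lemma slot_lt (j u b : ℕ) : slot j u b < 16 := by
  unfold slot; split_ifs <;> omega

lemma F_col {H j u b l v g g' : ℕ} (hv : v = 63 → g = g') (h : F H j u b l v g) :
    F H j u b l v g' := by
  by_cases h63 : v = 63
  · rw [← hv h63]; exact h
  · unfold F V1 V2 at *
    simp only [h63, false_and, and_false, false_or, or_false] at *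
    exact h

lemma F_row {H j u b b' l v g : ℕ} (hu : u = 63 → b = b') (h : F H j u b l v g) :
    F H j u b' l v g := by
  by_cases h63 : u = 63
  · rw [← hu h63]; exact h
  · unfold F U1 at *
    simp only [h63, false_and, and_false, false_or, or_false] at *
    exact h

lemma F_nrow {H j u b l v g : ℕ} (hu : 60 ≤ u) (h : F H j u b l v g) :
    (v < 60 ∧ v % 20 = 0 ∧ v / 20 < 2 ∧ j = l) ∨ (v = 40 ∧ j = l + 1) ∨
      (v < 60 ∧ v % 20 = 1 ∧ j = l) ∨ (v = 62 ∧ (j = l ∨ j = l + 1)) ∨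
      (v = 63 ∧ (l = j ∨ l = j + 1)) := by
  unfold F U1 U2 V1 V2 at h
  rcases h with h | h | ⟨h1, ⟨h2, _, h | h⟩ | ⟨h2, h | h⟩⟩ | ⟨h1, h2, (h | h) | h⟩ |
    ⟨h1, ⟨_, h | h⟩ | h | h⟩ | h
  · omega
  · omega
  · left; omega
  · right; left; omega
  · right; right; left; omega
  · right; right; left; omega
  · right; right; right; right; omega
  · omega
  · right; right; right; right; omega
  · omega
  · right; right; right; left; omega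
  · omega
  · right; right; right; left; omega
  · right; right; right; right; omega

lemma F_ncol {H j u b l v g : ℕ} (hv : 60 ≤ v) (h : F H j u b l v g) :
    (u < 60 ∧ u % 20 = 0 ∧ l = j) ∨ (u < 60 ∧ u % 20 = 1 ∧ l = j + 1) ∨
      (60 ≤ u ∧ u < 62 ∧ (l = j ∨ l = j + 1)) ∨
      (u = 63 ∧ v = 62 ∧ (j = l ∨ j = l + 1)) ∨ (u = 63 ∧ v = 63 ∧ (l = j ∨ l = j + 1)) := by
  unfold F U1 U2 V1 V2 at h
  rcases h with h | ⟨h1, ⟨h2, h | h⟩ | ⟨h2, h⟩⟩ | h | ⟨h1, h2, (h | h) | h⟩ |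
    ⟨h1, ⟨_, h | h⟩ | h | h⟩ | h
  · omega
  · left; omega
  · left; omega
  · right; left; omega
  · omega
  · right; right; left; omega
  · right; right; left; omega
  · right; right; left; omega
  · omega
  · right; right; right; left; omega
  · omega
  · right; right; right; left; omega
  · right; right; right; right; omega

lemma slot_col {H j u b l v g l' v' g' : ℕ} (hu : 60 ≤ u) (hg : g < 2) (hg' : g' < 2)
    (h : F H j u b l v g) (h' : F H j u b l' v' g') (hs : slot l v g = slot l' v' g') :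
    l = l' ∧ v = v' ∧ (v = 63 → g = g') := by
  have h1 := F_nrow hu h
  have h2 := F_nrow hu h'
  clear h h'
  unfold slot at hs
  rcases h1 with h1 | h1 | h1 | h1 | h1 <;> rcases h2 with h2 | h2 | h2 | h2 | h2 <;>
    split_ifs at hs <;> omega

lemma slot_row {H l v g j u b j' u' b' : ℕ} (hv : 60 ≤ v) (hb : b < 2) (hb' : b' < 2)
    (h : F H j u b l v g) (h' : F H j' u' b' l v g) (hs : slot j u b = slot j' u' b') :
    j = j' ∧ u = u' ∧ (u = 63 → b = b') := by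
  have h1 := F_ncol hv h
  have h2 := F_ncol hv h'
  clear h h'
  unfold slot at hs
  rcases h1 with h1 | h1 | h1 | h1 | h1 <;> rcases h2 with h2 | h2 | h2 | h2 | h2 <;>
    split_ifs at hs <;> omega

abbrev Ix (h : ℕ) : Type := (Fin (2 * h + 3) × Fin 64) × Fin (2 ^ h)

def A {h : ℕ} (r c : Ix h) : Prop :=
  F (h + 1) r.1.1 r.1.2 (beta (h + 1) r.1.1 r.2) c.1.1 c.1.2 (gamma (h + 1) c.1.1 c.2) ∧
    ((r.1.2 : ℕ) = 63 → (c.1.2 : ℕ) = 63 → phi (h + 1) c.1.1 r.2 c.2)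

def zoneR (u : ℕ) : ℕ := if u < 60 then 0 else if u = 63 then 1 else 2

def zoneC (h l v : ℕ) : ℕ :=
  if v < 60 then 0 else if v < 63 then 1 else if l = 0 then 2 else if l = 2 * h + 2 then 4 else 3

def lex3 (a b c a' b' c' : ℕ) : Prop := a < a' ∨ (a = a' ∧ (b < b' ∨ (b = b' ∧ c < c')))

def ltR {h : ℕ} (r r' : Ix h) : Prop :=
  lex3 (zoneR r.1.2) r.2 (64 * (2 * h + 2 - r.1.1) + r.1.2)
    (zoneR r'.1.2) r'.2 (64 * (2 * h + 2 - r'.1.1) + r'.1.2)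

def ltC {h : ℕ} (c c' : Ix h) : Prop :=
  lex3 (zoneC h c.1.1 c.1.2) c.2 (64 * c.1.1 + c.1.2)
    (zoneC h c'.1.1 c'.1.2) c'.2 (64 * c'.1.1 + c'.1.2)

def Hp (i j : ℕ) : Prop :=
  (i < 20 ∧ j < 20 ∧ i ≠ j) ∨ (i = 0 ∧ j = 20) ∨ (i = 1 ∧ j = 21) ∨ (i = 20 ∧ j = 0) ∨
    (i = 21 ∧ j = 1) ∨ (i = 20 ∧ j = 20) ∨ (i = 21 ∧ j = 20) ∨ (i = 21 ∧ j = 21)

structure IsCopy {h : ℕ} (B : Ix h → Ix h → Prop) (r c : Fin 22 → Ix h) : Prop where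
  hr : ∀ i j, i < j → ltR (r i) (r j)
  hc : ∀ i j, i < j → ltC (c i) (c j)
  hB : ∀ i j, B (r i) (c j) ↔ Hp i j

lemma colMono {h : ℕ} {r c c' : Ix h} (hlt : ltC c c') (h1 : (c.1.1 : ℕ) = c'.1.1)
    (h2 : (c.1.2 : ℕ) = c'.1.2)
    (h3 : (c.1.2 : ℕ) = 63 → gamma (h + 1) c.1.1 c.2 = gamma (h + 1) c'.1.1 c'.2)
    (hA : A r c) : A r c' := by
  unfold A at *
  unfold ltC lex3 at hlt
  rw [← h1, ← h2] at hlt ⊢
  rw [← h1] at h3
  exact ⟨F_col h3 hA.1, fun a b => phi_mono (hA.2 a b) le_rfl (by omega)⟩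

lemma rowMono {h : ℕ} {r r' c : Ix h} (hlt : ltR r r') (h1 : (r.1.1 : ℕ) = r'.1.1)
    (h2 : (r.1.2 : ℕ) = r'.1.2)
    (h3 : (r.1.2 : ℕ) = 63 → beta (h + 1) r.1.1 r.2 = beta (h + 1) r'.1.1 r'.2)
    (hA : A r' c) : A r c := by
  unfold A at *
  unfold ltR lex3 at hlt
  rw [← h1, ← h2] at hlt hA
  rw [← h1] at h3
  exact ⟨F_row (fun a => (h3 a).symm) hA.1, fun a b => phi_mono (hA.2 a b) (by omega) le_rfl⟩

end Vale.Agent.P037
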