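import Vale.Agent.P037.Model

namespace Vale.Agent.P037

variable {h : ℕ} {r c : Fin 22 → Ix h}

lemma IsCopy.one (H : IsCopy A r c) (i j : Fin 22) (hij : Hp i j) : A (r i) (c j) :=
  (H.hB i j).2 hij

lemma IsCopy.zero (H : IsCopy A r c) (i j : Fin 22) (hij : ¬ Hp i j) : ¬ A (r i) (c j) :=
  fun a => hij ((H.hB i j).1 a)

lemma pigeon (f : Fin 22 → ℕ) (hf : ∀ i, f i < 16) :
    ∃ a b : Fin 22, 3 ≤ (a : ℕ) ∧ a < b ∧ (b : ℕ) < 20 ∧ f a = f b := by
  obtain ⟨a, b, hab, he⟩ := Fintype.exists_ne_map_eq_of_card_lt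
    (fun a : Fin 17 => (⟨f ⟨a + 3, by omega⟩, hf _⟩ : Fin 16)) (by simp)
  have he' : f ⟨a + 3, by omega⟩ = f ⟨b + 3, by omega⟩ := congrArg Fin.val he
  have hne : (a : ℕ) ≠ b := fun e => hab (Fin.ext e)
  rcases lt_or_gt_of_ne hne with hlt | hlt
  · exact ⟨⟨a + 3, by omega⟩, ⟨b + 3, by omega⟩, by simp, by simp [Fin.lt_def, hlt],
      by simp; omega, he'⟩
  · exact ⟨⟨b + 3, by omega⟩, ⟨a + 3, by omega⟩, by simp, by simp [Fin.lt_def, hlt],
      by simp; omega, he'.symm⟩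

lemma IsCopy.rowAnchor (H : IsCopy A r c) (i : Fin 22) (hi : (i : ℕ) < 3) :
    ((r i).1.2 : ℕ) < 60 := by
  by_contra hu
  obtain ⟨a, b, ha, hab, hb, he⟩ := pigeon
    (fun l => slot (c l).1.1 (c l).1.2 (gamma (h + 1) (c l).1.1 (c l).2)) (fun _ => slot_lt _ _ _)
  have hab' : (a : ℕ) < b := hab
  have h1 := H.one i a (by unfold Hp; omega)
  have h2 := H.one i b (by unfold Hp; omega)
  obtain ⟨e1, e2, e3⟩ := slot_col (by omega) (gamma_lt _ _ _) (gamma_lt _ _ _) h1.1 h2.1 he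
  exact H.zero b b (by unfold Hp; omega)
    (colMono (H.hc a b hab) e1 e2 e3 (H.one b a (by unfold Hp; omega)))

lemma IsCopy.colAnchor (H : IsCopy A r c) (i : Fin 22) (hi : (i : ℕ) < 3) :
    ((c i).1.2 : ℕ) < 60 := by
  by_contra hu
  obtain ⟨a, b, ha, hab, hb, he⟩ := pigeon
    (fun l => slot (r l).1.1 (r l).1.2 (beta (h + 1) (r l).1.1 (r l).2)) (fun _ => slot_lt _ _ _)
  have hab' : (a : ℕ) < b := hab
  have h1 := H.one a i (by unfold Hp; omega)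
  have h2 := H.one b i (by unfold Hp; omega)
  obtain ⟨e1, e2, e3⟩ := slot_row (by omega) (beta_lt _ _ _) (beta_lt _ _ _) h1.1 h2.1 he
  exact H.zero a a (by unfold Hp; omega)
    (rowMono (H.hr a b hab) e1 e2 e3 (H.one b a (by unfold Hp; omega)))

lemma F_aa {H j u b l v g : ℕ} (hu : u < 60) (hv : v < 60) :
    F H j u b l v g ↔ j = l ∧ u / 20 = v / 20 ∧ u ≠ v := by
  constructor
  · intro h
    unfold F U1 U2 V1 V2 at h
    rcases h with h | ⟨h1, h | h⟩ | ⟨h1, h | h⟩ | ⟨h1, h2, h | h⟩ | ⟨h1, h | h⟩ | h <;> omega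
  · intro h
    exact Or.inl ⟨hu, hv, h⟩

lemma F_an {H j u b l v g : ℕ} (hu : u < 60) (hv : 60 ≤ v) :
    F H j u b l v g ↔
      (u % 20 = 0 ∧ V1 H j (u / 20) l v g) ∨ (u % 20 = 1 ∧ V2 H j (u / 20) l v g) := by
  constructor
  · intro h
    unfold F U1 U2 at h
    rcases h with h | ⟨h1, h⟩ | ⟨h1, h | h⟩ | ⟨h1, h2, h | h⟩ | ⟨h1, h | h⟩ | h
    all_goals first | exact h | omega
  · intro h
    exact Or.inr (Or.inl ⟨hu, h⟩)

lemma F_na {H j u b l v g : ℕ} (hu : 60 ≤ u) (hv : v < 60) :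
    F H j u b l v g ↔
      (v % 20 = 0 ∧ U1 l (v / 20) j u b) ∨ (v % 20 = 1 ∧ U2 l (v / 20) j u) := by
  constructor
  · intro h
    unfold F V1 V2 at h
    rcases h with h | ⟨h1, h⟩ | ⟨h1, h⟩ | ⟨h1, h2, h | h⟩ | ⟨h1, h⟩ | h
    all_goals first | exact h | omega
  · intro h
    exact Or.inr (Or.inr (Or.inl ⟨hv, h⟩))

lemma A_aa {r c : Ix h} (hu : (r.1.2 : ℕ) < 60) (hv : (c.1.2 : ℕ) < 60) :
    A r c ↔ (r.1.1 : ℕ) = c.1.1 ∧ (r.1.2 : ℕ) / 20 = c.1.2 / 20 ∧ (r.1.2 : ℕ) ≠ c.1.2 := by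
  unfold A
  rw [F_aa hu hv]
  exact ⟨fun a => a.1, fun a => ⟨a, fun b => by omega⟩⟩

lemma A_an {r c : Ix h} (hu : (r.1.2 : ℕ) < 60) (hv : 60 ≤ (c.1.2 : ℕ)) :
    A r c ↔ ((r.1.2 : ℕ) % 20 = 0 ∧
        V1 (h + 1) r.1.1 (r.1.2 / 20) c.1.1 c.1.2 (gamma (h + 1) c.1.1 c.2)) ∨
      ((r.1.2 : ℕ) % 20 = 1 ∧
        V2 (h + 1) r.1.1 (r.1.2 / 20) c.1.1 c.1.2 (gamma (h + 1) c.1.1 c.2)) := by
  unfold A
  rw [F_an hu hv]
  exact ⟨fun a => a.1, fun a => ⟨a, fun b => by omega⟩⟩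

lemma A_na {r c : Ix h} (hu : 60 ≤ (r.1.2 : ℕ)) (hv : (c.1.2 : ℕ) < 60) :
    A r c ↔ ((c.1.2 : ℕ) % 20 = 0 ∧
        U1 c.1.1 (c.1.2 / 20) r.1.1 r.1.2 (beta (h + 1) r.1.1 r.2)) ∨
      ((c.1.2 : ℕ) % 20 = 1 ∧ U2 c.1.1 (c.1.2 / 20) r.1.1 r.1.2) := by
  unfold A
  rw [F_na hu hv]
  exact ⟨fun a => a.1, fun a => ⟨a, fun _ b => by omega⟩⟩

lemma A_dd {r c : Ix h} (hu : (r.1.2 : ℕ) = 63) (hv : (c.1.2 : ℕ) = 63)
    (hl : (c.1.1 : ℕ) = r.1.1 ∨ (c.1.1 : ℕ) = r.1.1 + 1) :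
    A r c ↔ phi (h + 1) c.1.1 r.2 c.2 := by
  unfold A
  exact ⟨fun a => a.2 hu hv, fun a =>
    ⟨Or.inr (Or.inr (Or.inr (Or.inr (Or.inr ⟨hu, hv, hl⟩)))), fun _ _ => a⟩⟩

theorem IsCopy.rigid (H : IsCopy A r c) : c 20 = r 20 := by
  have r0 := H.rowAnchor 0 (by decide)
  have r1 := H.rowAnchor 1 (by decide)
  have r2 := H.rowAnchor 2 (by decide)
  have c0 := H.colAnchor 0 (by decide)
  have c1 := H.colAnchor 1 (by decide)
  have c2 := H.colAnchor 2 (by decide)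
  have a01 := (A_aa r0 c1).1 (H.one 0 1 (by unfold Hp; decide))
  have a02 := (A_aa r0 c2).1 (H.one 0 2 (by unfold Hp; decide))
  have a10 := (A_aa r1 c0).1 (H.one 1 0 (by unfold Hp; decide))
  have a12 := (A_aa r1 c2).1 (H.one 1 2 (by unfold Hp; decide))
  have a20 := (A_aa r2 c0).1 (H.one 2 0 (by unfold Hp; decide))
  have a21 := (A_aa r2 c1).1 (H.one 2 1 (by unfold Hp; decide))
  have a00 := mt (A_aa r0 c0).2 (H.zero 0 0 (by unfold Hp; decide))
  have a11 := mt (A_aa r1 c1).2 (H.zero 1 1 (by unfold Hp; decide))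
  have a22 := mt (A_aa r2 c2).2 (H.zero 2 2 (by unfold Hp; decide))
  have e0 : ((r 0).1.2 : ℕ) = (c 0).1.2 := by omega
  have e1 : ((r 1).1.2 : ℕ) = (c 1).1.2 := by omega
  have e2 : ((r 2).1.2 : ℕ) = (c 2).1.2 := by omega
  have j01 : ((r 0).1.1 : ℕ) = (r 1).1.1 := by omega
  have j00 : ((c 0).1.1 : ℕ) = (r 0).1.1 := by omega
  have j11 : ((c 1).1.1 : ℕ) = (r 0).1.1 := by omega
  have k01 : ((r 1).1.2 : ℕ) / 20 = (r 0).1.2 / 20 := by omega
  have r20 : 60 ≤ ((r 20).1.2 : ℕ) := by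
    by_contra hh
    have b0 := (A_aa (by omega) c0).1 (H.one 20 0 (by unfold Hp; decide))
    have b1 := mt (A_aa (by omega) c1).2 (H.zero 20 1 (by unfold Hp; decide))
    have b2 := mt (A_aa (by omega) c2).2 (H.zero 20 2 (by unfold Hp; decide))
    omega
  have r21 : 60 ≤ ((r 21).1.2 : ℕ) := by
    by_contra hh
    have b0 := (A_aa (by omega) c1).1 (H.one 21 1 (by unfold Hp; decide))
    have b1 := mt (A_aa (by omega) c0).2 (H.zero 21 0 (by unfold Hp; decide))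
    have b2 := mt (A_aa (by omega) c2).2 (H.zero 21 2 (by unfold Hp; decide))
    omega
  have c20 : 60 ≤ ((c 20).1.2 : ℕ) := by
    by_contra hh
    have b0 := (A_aa r0 (by omega)).1 (H.one 0 20 (by unfold Hp; decide))
    have b1 := mt (A_aa r1 (by omega)).2 (H.zero 1 20 (by unfold Hp; decide))
    have b2 := mt (A_aa r2 (by omega)).2 (H.zero 2 20 (by unfold Hp; decide))
    omega
  have c21 : 60 ≤ ((c 21).1.2 : ℕ) := by
    by_contra hh
    have b0 := (A_aa r1 (by omega)).1 (H.one 1 21 (by unfold Hp; decide))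
    have b1 := mt (A_aa r0 (by omega)).2 (H.zero 0 21 (by unfold Hp; decide))
    have b2 := mt (A_aa r2 (by omega)).2 (H.zero 2 21 (by unfold Hp; decide))
    omega
  have p1 := (A_na r20 c0).1 (H.one 20 0 (by unfold Hp; decide))
  have p2 := (A_na r21 c1).1 (H.one 21 1 (by unfold Hp; decide))
  have q1 := (A_an r0 c20).1 (H.one 0 20 (by unfold Hp; decide))
  have q2 := (A_an r1 c21).1 (H.one 1 21 (by unfold Hp; decide))
  have d11 := H.one 20 20 (by unfold Hp; decide)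
  have d12 := H.zero 20 21 (by unfold Hp; decide)
  have d22 := H.one 21 21 (by unfold Hp; decide)
  have lr := H.hr 20 21 (by decide)
  have lc := H.hc 20 21 (by decide)
  have n01 : ((r 0).1.2 : ℕ) ≠ (r 1).1.2 := by omega
  rw [← e0, j00] at p1
  rw [← e1, j11, k01] at p2
  rw [← j01, k01] at q2
  clear a00 a11 a22 a01 a02 a10 a12 a20 a21 e0 e1 e2 j01 j00 j11 r2 c0 c1 c2
  have hcase : (((r 0).1.2 : ℕ) % 20 = 0 ∧ ((r 1).1.2 : ℕ) % 20 = 1) ∨
      (((r 0).1.2 : ℕ) % 20 = 1 ∧ ((r 1).1.2 : ℕ) % 20 = 0) := by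
    rcases p1 with p1 | p1 <;> rcases p2 with p2 | p2 <;> omega
  generalize ((r 0).1.2 : ℕ) / 20 = k at *
  generalize ((r 0).1.1 : ℕ) = j0 at *
  unfold ltR lex3 zoneR at lr
  unfold ltC lex3 zoneC at lc
  rcases hcase with ⟨s0, s1⟩ | ⟨s0, s1⟩
  · replace p1 := (p1.resolve_right (by omega)).2
    replace p2 := (p2.resolve_left (by omega)).2
    replace q1 := (q1.resolve_right (by omega)).2
    replace q2 := (q2.resolve_left (by omega)).2
    unfold U1 at p1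
    unfold U2 at p2
    unfold V1 at q1
    unfold V2 at q2
    rcases p1 with ⟨u20, ⟨hk, jj, hb⟩ | ⟨hk, jj⟩⟩
    · obtain ⟨_, v20, l20, g20⟩ := q1.resolve_right (by omega)
      obtain ⟨v21, l21, g21⟩ := q2
      rw [A_dd u20 v20 (by omega)] at d11
      rw [A_dd u20 v21 (by omega)] at d12
      rw [l20] at d11 g20
      rw [l21] at d12 g21
      rw [jj] at hb
      have := step (j := j0) (r 20).2.2 (c 20).2.2 (y' := (c 21).2)
        (by split_ifs at lc <;> omega) (fun a => by omega) (fun a => by omega) d11 d12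
      refine Prod.ext (Prod.ext (Fin.ext ?_) (Fin.ext ?_)) (Fin.ext ?_) <;> omega
    · exfalso
      obtain ⟨_, u21, j21⟩ := p2.resolve_left (by omega)
      obtain ⟨v21, l21, g21⟩ := q2
      rw [A_dd u20 v21 (by omega)] at d12
      rw [A_dd u21 v21 (by omega)] at d22
      exact d12 (phi_mono d22 (by split_ifs at lr <;> omega) le_rfl)
  · exfalso
    replace p1 := (p1.resolve_left (by omega)).2
    replace p2 := (p2.resolve_right (by omega)).2
    replace q1 := (q1.resolve_left (by omega)).2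
    replace q2 := (q2.resolve_right (by omega)).2
    unfold U2 at p1
    unfold U1 at p2
    unfold V2 at q1
    unfold V1 at q2
    rcases p1 with p1 | p1
    · have := p2.1
      split_ifs at lr <;> omega
    · have := q1.1
      have := (q2.resolve_left (by omega)).2.2
      split_ifs at lc <;> omega

end Vale.Agent.P037
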